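import Vale.Agent.Lib.P129.Main

open TopologicalSpace

namespace Vale.Agent.Results.P129.A_criterion

/-- For every Banach space `X` over the reals or the complex numbers:
(1) `X` has a separable infinite-dimensional quotient if and only if its dual has an
infinite-dimensional subspace `G` such that `X` is separable for the seminorm
`p_G x = sup { |g x| : g ∈ G, ‖g‖ ≤ 1 }` (the third clause says that the sequence `d` is `p_G`-dense);
(2) in particular this holds as soon as the dual of `X` contains an isomorphic copy of an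
infinite-dimensional normed space `Z` whose dual is separable. -/
theorem result {𝕜 X : Type*} [RCLike 𝕜] [NormedAddCommGroup X] [NormedSpace 𝕜 X]
    [CompleteSpace X] :
    ((∃ M : Submodule 𝕜 X, IsClosed (M : Set X) ∧ SeparableSpace (X ⧸ M) ∧
        ¬ FiniteDimensional 𝕜 (X ⧸ M)) ↔
      ∃ G : Submodule 𝕜 (StrongDual 𝕜 X), ¬ FiniteDimensional 𝕜 G ∧
        ∃ d : ℕ → X, ∀ x : X, ∀ ε : ℝ, 0 < ε → ∃ l, ∀ g ∈ G, ‖g (x - d l)‖ ≤ ε * ‖g‖) ∧
    ∀ (Z : Type*) [NormedAddCommGroup Z] [NormedSpace 𝕜 Z] (J : Z →L[𝕜] StrongDual 𝕜 X) (c : ℝ),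
      0 < c → (∀ z, c * ‖z‖ ≤ ‖J z‖) → ¬ FiniteDimensional 𝕜 Z →
      SeparableSpace (StrongDual 𝕜 Z) →
      ∃ M : Submodule 𝕜 X, IsClosed (M : Set X) ∧ SeparableSpace (X ⧸ M) ∧
        ¬ FiniteDimensional 𝕜 (X ⧸ M) := by
  refine ⟨⟨?_, ?_⟩, ?_⟩
  · rintro ⟨M, hM, hsep, hinf⟩
    exact Vale.Agent.Lib.P129.exists_subspace_core (D := StrongDual 𝕜 X)
      (ContinuousLinearMap.id 𝕜 _) (fun _ => rfl) Function.surjective_id M hM hsep hinf
  · rintro ⟨G, hG, d, hd⟩
    exact Vale.Agent.Lib.P129.exists_quotient_core (D := StrongDual 𝕜 X)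
      (ContinuousLinearMap.id 𝕜 _) (fun _ => rfl) G hG d hd
  · intro Z _ _ J c hc hJ hZ hs
    exact Vale.Agent.Lib.P129.exists_quotient_of_copy (D := StrongDual 𝕜 X)
      (ContinuousLinearMap.id 𝕜 _) (fun _ => rfl) J c hc hJ hZ

end Vale.Agent.Results.P129.A_criterion
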